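import Crest.Agent.R189.Iface
import Crest.Agent.R189.Basic
import Crest.Agent.R189.Full.Simple

/-! Row 189, block B5: the group of a good subshift is simple and infinite. -/

set_option autoImplicit false

namespace Crest.Agent.R189

theorem s_B5 : S_B5 := by
  intro X g
  haveI := g.isMinimal
  haveI := g.H.isCancelVAdd
  exact ⟨isSimpleGroup_SG (by norm_num), infinite_SG (by norm_num)⟩

end Crest.Agent.R189
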